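import Crest.Agent.Lib_Cyl.Cyl

/-!
Cover-independent assembly lemmas for the cylinder row S0324-S0329:
padding / tuning of triangle covers.
-/

set_option autoImplicit false
open MeasureTheory Set

namespace Crest.Agent.Cyl1

open Crest.Agent.Cyl

/-- `K` is covered by `m` cylinders with unit axes and triangular perpendicular bases of total
(`μHE[2]`) area `A`. -/
def TriCover (K : Set E3) (m : ℕ) (A : ℝ) : Prop :=
  ∃ (u p q r : Fin m → E3), (∀ i, ‖u i‖ = 1) ∧
    (∀ i, inner ℝ (p i) (u i) = 0 ∧ inner ℝ (q i) (u i) = 0 ∧ inner ℝ (r i) (u i) = 0) ∧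
    K ⊆ ⋃ i, {x : E3 | ∃ b ∈ convexHull ℝ {p i, q i, r i}, ∃ t : ℝ, x = b + t • u i} ∧
    ∑ i, (μHE[2] (convexHull ℝ ({p i, q i, r i} : Set E3))).toReal = A

lemma norm_e2 : ‖(!₂[0, 0, 1] : E3)‖ = 1 := by
  have h : ‖(!₂[0, 0, 1] : E3)‖ ^ 2 = 1 := by
    rw [norm_sq3]; simp
  have h0 : 0 ≤ ‖(!₂[0, 0, 1] : E3)‖ := norm_nonneg _
  nlinarith

lemma area_aux (a : ℝ) (ha : 0 ≤ a) :
    (μHE[2] (convexHull ℝ ({(0 : E3), !₂[2 * a, 0, 0], !₂[0, 1, 0]} : Set E3))).toReal = a := by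
  rw [area_tri, sub_zero, sub_zero]
  have hg : gram (!₂[2 * a, 0, 0] : E3) (!₂[0, 1, 0] : E3) = (2 * a) ^ 2 := by
    simp [gram, norm_sq3, inner3]
  rw [hg, Real.sqrt_sq (by linarith), ENNReal.toReal_ofReal (by linarith)]
  ring

/-- add one more triangle of prescribed area `a ≥ 0`. -/
lemma TriCover.add {K : Set E3} {m : ℕ} {A : ℝ} (h : TriCover K m A) (a : ℝ) (ha : 0 ≤ a) :
    TriCover K (m + 1) (A + a) := by
  obtain ⟨u, p, q, r, hu, ho, hc, hA⟩ := h
  refine ⟨Fin.cons !₂[0, 0, 1] u, Fin.cons 0 p, Fin.cons !₂[2 * a, 0, 0] q,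
    Fin.cons !₂[0, 1, 0] r, ?_, ?_, ?_, ?_⟩
  · intro i
    refine Fin.cases ?_ (fun j => ?_) i
    · simpa using norm_e2
    · simpa using hu j
  · intro i
    refine Fin.cases ?_ (fun j => ?_) i
    · simp [inner3]
    · simpa using ho j
  · intro x hx
    obtain ⟨j, hj⟩ := mem_iUnion.mp (hc hx)
    refine mem_iUnion.mpr ⟨j.succ, ?_⟩
    simpa using hj
  · rw [Fin.sum_univ_succ]
    simp only [Fin.cons_zero, Fin.cons_succ]
    rw [area_aux a ha, hA]
    ring

lemma TriCover.pad {K : Set E3} {m : ℕ} {A : ℝ} (h : TriCover K m A) (k : ℕ) :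
    TriCover K (m + k) A := by
  induction k with
  | zero => simpa using h
  | succ k ih =>
    have := ih.add 0 le_rfl
    simpa [add_assoc] using this

/-- padding and tuning: any larger number of triangles and any larger total area. -/
lemma TriCover.tune {K : Set E3} {m : ℕ} {A : ℝ} (h : TriCover K m A) (M : ℕ) (hM : m + 1 ≤ M)
    (A' : ℝ) (hA : A ≤ A') : TriCover K M A' := by
  have h1 := (h.add (A' - A) (by linarith)).pad (M - (m + 1))
  have e1 : m + 1 + (M - (m + 1)) = M := by omega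
  have e2 : A + (A' - A) = A' := by ring
  rw [e1, e2] at h1
  exact h1

end Crest.Agent.Cyl1
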