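import Crest.Agent.Lib_helper1.Pg

/-!
Wrapper for S0327: from a parallelogram cover of small total area and a lower bound for all
projection areas.
-/

set_option autoImplicit false
open MeasureTheory Set

namespace Crest.Agent.Cyl1

open Crest.Agent.Cyl

lemma area_pg_toReal (c a b : E3) :
    (μHE[2] {x : E3 | ∃ s ∈ Icc (0 : ℝ) 1, ∃ t ∈ Icc (0 : ℝ) 1, x = c + s • a + t • b}).toReal
      = Real.sqrt (gram a b) := by
  have := area_pgram c a b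
  unfold pgram at this
  rw [this, ENNReal.toReal_ofReal (Real.sqrt_nonneg _)]

lemma isBounded_pgram (c a b : E3) : Bornology.IsBounded (pgram c a b) := by
  rw [isBounded_iff_forall_norm_le]
  refine ⟨‖c‖ + ‖a‖ + ‖b‖, ?_⟩
  rintro x ⟨s, hs, t, ht, rfl⟩
  have h1 : ‖s • a‖ ≤ ‖a‖ := by
    rw [norm_smul, Real.norm_eq_abs, abs_of_nonneg hs.1]
    exact mul_le_of_le_one_left (norm_nonneg _) hs.2
  have h2 : ‖t • b‖ ≤ ‖b‖ := by
    rw [norm_smul, Real.norm_eq_abs, abs_of_nonneg ht.1]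
    exact mul_le_of_le_one_left (norm_nonneg _) ht.2
  calc ‖c + s • a + t • b‖ ≤ ‖c + s • a‖ + ‖t • b‖ := norm_add_le _ _
    _ ≤ ‖c‖ + ‖s • a‖ + ‖t • b‖ := by gcongr; exact norm_add_le _ _
    _ ≤ ‖c‖ + ‖a‖ + ‖b‖ := by gcongr

/-- reindex a parallelogram cover by `Fin k`. -/
lemma PgCover.toFin {K : Set E3} {A : ℝ} (h : PgCover K A) :
    ∃ (k : ℕ) (u c a b : Fin k → E3), (∀ i, ‖u i‖ = 1) ∧
      (∀ i, inner ℝ (c i) (u i) = 0 ∧ inner ℝ (a i) (u i) = 0 ∧ inner ℝ (b i) (u i) = 0) ∧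
      K ⊆ ⋃ i, {x : E3 | ∃ s ∈ Icc (0 : ℝ) 1, ∃ t ∈ Icc (0 : ℝ) 1, ∃ τ : ℝ,
        x = c i + s • a i + t • b i + τ • u i} ∧
      ∑ i, Real.sqrt (gram (a i) (b i)) ≤ A := by
  obtain ⟨ι, hι, u, c, a, b, hu, ho, hc, hA⟩ := h
  let e : Fin (Fintype.card ι) ≃ ι := (Fintype.equivFin ι).symm
  refine ⟨Fintype.card ι, u ∘ e, c ∘ e, a ∘ e, b ∘ e, fun i => hu _, fun i => ho _, ?_, ?_⟩
  · intro x hx
    obtain ⟨i, hi⟩ := mem_iUnion.mp (hc hx)
    refine mem_iUnion.mpr ⟨e.symm i, ?_⟩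
    simpa using hi
  · have := Equiv.sum_comp e (fun i => Real.sqrt (gram (a i) (b i)))
    simp only [Function.comp]
    rw [this]
    exact hA

theorem S0327_of_pg (Kw : Set E3) (P₀ A₁ : ℝ) (hP₀ : 0 < P₀) (hA₁ : A₁ < P₀ / 2)
    (hcov : PgCover Kw A₁)
    (hproj : ∀ v : E3, ‖v‖ = 1 →
      P₀ ≤ (μHE[2] ((fun y => y - inner ℝ y v • v) '' Kw)).toReal) :
    (∃ (k : ℕ) (u c a b : Fin k → EuclideanSpace ℝ (Fin 3)),
      (∀ i, ‖u i‖ = 1) ∧
      (∀ i, inner ℝ (c i) (u i) = 0 ∧ inner ℝ (a i) (u i) = 0 ∧ inner ℝ (b i) (u i) = 0) ∧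
      Kw ⊆ ⋃ i, {x : EuclideanSpace ℝ (Fin 3) |
        ∃ s ∈ Set.Icc (0 : ℝ) 1, ∃ t ∈ Set.Icc (0 : ℝ) 1, ∃ τ : ℝ, x = c i + s • a i + t • b i + τ • u i} ∧
      (∃ δ : ℝ, 0 < δ ∧ ∀ v : EuclideanSpace ℝ (Fin 3), ‖v‖ = 1 →
        (∑ i, (μHE[2] {x : EuclideanSpace ℝ (Fin 3) |
            ∃ s ∈ Set.Icc (0 : ℝ) 1, ∃ t ∈ Set.Icc (0 : ℝ) 1, x = c i + s • a i + t • b i}).toReal) + δ ≤
          (μHE[2] ((fun y => y - inner ℝ y v • v) '' Kw)).toReal / 2) ∧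
      ∑ i, (μHE[2] {x : EuclideanSpace ℝ (Fin 3) |
            ∃ s ∈ Set.Icc (0 : ℝ) 1, ∃ t ∈ Set.Icc (0 : ℝ) 1, x = c i + s • a i + t • b i}).toReal /
          (μHE[2] ((fun y => y - inner ℝ y (u i) • u i) '' Kw)).toReal < 1 / 2) ∧
    (∃ (k : ℕ) (u : Fin k → EuclideanSpace ℝ (Fin 3)) (B : Fin k → Set (EuclideanSpace ℝ (Fin 3))),
      (∀ i, ‖u i‖ = 1) ∧
      (∀ i, Bornology.IsBounded (B i) ∧ ∃ O : Set (EuclideanSpace ℝ (Fin 3)), IsOpen O ∧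
        B i = O ∩ {x | inner ℝ x (u i) = 0}) ∧
      Kw ⊆
        ⋃ i, {x : EuclideanSpace ℝ (Fin 3) | ∃ y ∈ B i, ∃ τ : ℝ, x = y + τ • u i} ∧
      (∃ δ : ℝ, 0 < δ ∧ ∀ v : EuclideanSpace ℝ (Fin 3), ‖v‖ = 1 →
        (∑ i, (μHE[2] (B i)).toReal) + δ ≤
          (μHE[2] ((fun y => y - inner ℝ y v • v) '' Kw)).toReal / 2) ∧
      ∑ i, (μHE[2] (B i)).toReal /
          (μHE[2] ((fun y => y - inner ℝ y (u i) • u i) '' Kw)).toReal < 1 / 2) := by
  obtain ⟨k, u, c, a, b, hu, ho, hc, hA⟩ := hcov.toFin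
  -- a general estimate for normalised sums
  have key : ∀ (f : Fin k → ℝ), (∀ i, 0 ≤ f i) → ∀ S : ℝ, ∑ i, f i ≤ S → S < P₀ / 2 →
      ∑ i, f i / (μHE[2] ((fun y => y - inner ℝ y (u i) • u i) '' Kw)).toReal < 1 / 2 := by
    intro f hf S hS hS2
    have h1 : ∑ i, f i / (μHE[2] ((fun y => y - inner ℝ y (u i) • u i) '' Kw)).toReal
        ≤ ∑ i, f i / P₀ := by
      refine Finset.sum_le_sum (fun i _ => ?_)
      exact div_le_div_of_nonneg_left (hf i) hP₀ (hproj (u i) (hu i))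
    rw [← Finset.sum_div] at h1
    refine lt_of_le_of_lt h1 ?_
    rw [div_lt_iff₀ hP₀]
    linarith
  constructor
  · refine ⟨k, u, c, a, b, hu, ho, hc, ⟨P₀ / 2 - A₁, by linarith, ?_⟩, ?_⟩
    · intro v hv
      simp_rw [area_pg_toReal]
      have := hproj v hv
      linarith
    · simp_rw [area_pg_toReal]
      exact key _ (fun i => Real.sqrt_nonneg _) A₁ hA hA₁
  · set δ : ℝ := P₀ / 2 - A₁ with hδ
    have hδ0 : 0 < δ := by rw [hδ]; linarith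
    set η : ℝ := δ / (2 * ((k : ℝ) + 1)) with hη
    have hη0 : 0 < η := by rw [hη]; positivity
    have hex : ∀ i, ∃ B : Set E3, Bornology.IsBounded B ∧
        (∃ O : Set E3, IsOpen O ∧ B = O ∩ {x | inner ℝ x (u i) = 0}) ∧ pgram (c i) (a i) (b i) ⊆ B ∧
        μHE[2] B ≤ μHE[2] (pgram (c i) (a i) (b i)) + ENNReal.ofReal η := by
      intro i
      refine exists_relOpen_superset (u i) (hu i) _ ?_ (isBounded_pgram _ _ _) η hη0
      rintro x ⟨s, _, t, _, rfl⟩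
      obtain ⟨h1, h2, h3⟩ := ho i
      simp [inner_add_left, inner_smul_left, h1, h2, h3]
    choose B hBb hBo hBsub hBarea using hex
    have hBreal : ∀ i, (μHE[2] (B i)).toReal ≤ Real.sqrt (gram (a i) (b i)) + η := by
      intro i
      apply ENNReal.toReal_le_of_le_ofReal (by positivity)
      rw [ENNReal.ofReal_add (Real.sqrt_nonneg _) hη0.le, ← area_pgram (c i)]
      exact hBarea i
    have hsum : ∑ i, (μHE[2] (B i)).toReal ≤ A₁ + δ / 2 := by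
      calc ∑ i, (μHE[2] (B i)).toReal ≤ ∑ i, (Real.sqrt (gram (a i) (b i)) + η) :=
            Finset.sum_le_sum (fun i _ => hBreal i)
        _ = ∑ i, Real.sqrt (gram (a i) (b i)) + k * η := by
            rw [Finset.sum_add_distrib]; simp
        _ ≤ A₁ + δ / 2 := by
            have : (k : ℝ) * η ≤ δ / 2 := by
              rw [hη]
              have hk : (0 : ℝ) ≤ k := Nat.cast_nonneg k
              rw [mul_div_assoc', div_le_div_iff₀ (by positivity) (by norm_num)]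
              nlinarith
            linarith
    refine ⟨k, u, B, hu, fun i => ⟨hBb i, hBo i⟩, ?_, ⟨δ / 2, by positivity, ?_⟩, ?_⟩
    · intro x hx
      obtain ⟨i, s, hs, t, ht, τ, rfl⟩ := mem_iUnion.mp (hc hx)
      exact mem_iUnion.mpr ⟨i, _, hBsub i ⟨s, hs, t, ht, rfl⟩, τ, rfl⟩
    · intro v hv
      have := hproj v hv
      linarith
    · exact key _ (fun i => ENNReal.toReal_nonneg) _ hsum (by linarith)

end Crest.Agent.Cyl1
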