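import Crest.Agent.Lib_helper1.Wrap2425
import Crest.Agent.Lib_helper1.Wrap27
import Crest.Agent.Lib_Cyl.TetraCover
import Crest.Agent.Lib_helper9.Similar

/-!
Putting together the tetrahedron cover (helper7), the projection bounds (helper9) and the wrappers.
-/

set_option autoImplicit false
open MeasureTheory Set

namespace Crest.Agent.Cyl1

open Crest.Agent.Cyl

/-- the cover of the standard tetrahedron in `TriCover` form -/
theorem exists_triCover : ∃ (m : ℕ) (A₀ : ℝ), m + 1 ≤ 16000000 ∧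
    A₀ ≤ Real.sqrt 2 * (1 / 2 - 1 / 10 ^ 7) ∧ TriCover K0 m A₀ := by
  obtain ⟨m, hm, u, p, q, r, hu, ho, hc, hA⟩ := main_cover
  exact ⟨m, _, by omega, hA, u, p, q, r, hu, ho, hc, rfl⟩

lemma sqrt_two_pos : 0 < Real.sqrt 2 := Real.sqrt_pos.mpr (by norm_num)

theorem pgCover_regular (w : Fin 4 → E3) (ℓ : ℝ) (hℓ : 0 < ℓ)
    (hw : ∀ i j, i ≠ j → dist (w i) (w j) = ℓ) :
    ∃ A₁ : ℝ, A₁ < (Real.sqrt 2 * ℓ ^ 2 / 4) / 2 ∧ PgCover (convexHull ℝ (Set.range w)) A₁ := by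
  obtain ⟨m, A₀, _, hA, hcov⟩ := exists_triCover
  obtain ⟨Φ, m₀, hΦ⟩ := Crest.Agent.helper9.exists_similarity w ℓ hℓ hw
  have himg := Crest.Agent.helper9.convexHull_range_eq_image hΦ
  have h1 := (hcov.toPg (10 ^ 7) (by norm_num)).similarity Φ.toLinearIsometry (ℓ / 2)
    (by positivity) m₀
  refine ⟨(ℓ / 2) ^ 2 * (A₀ * (1 + 1 / ((10 ^ 7 : ℕ) : ℝ))), ?_, ?_⟩
  rotate_left
  · rw [himg]
    exact h1
  · have hs := sqrt_two_pos
    have h2 : A₀ * (1 + 1 / ((10 ^ 7 : ℕ) : ℝ)) < Real.sqrt 2 / 2 := by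
      have h3 : A₀ * (1 + 1 / ((10 ^ 7 : ℕ) : ℝ))
          ≤ Real.sqrt 2 * (1 / 2 - 1 / 10 ^ 7) * (1 + 1 / ((10 ^ 7 : ℕ) : ℝ)) :=
        mul_le_mul_of_nonneg_right hA (by positivity)
      refine lt_of_le_of_lt h3 ?_
      push_cast
      nlinarith
    have h4 : (0 : ℝ) < (ℓ / 2) ^ 2 := by positivity
    calc (ℓ / 2) ^ 2 * (A₀ * (1 + 1 / ((10 ^ 7 : ℕ) : ℝ))) < (ℓ / 2) ^ 2 * (Real.sqrt 2 / 2) :=
          mul_lt_mul_of_pos_left h2 h4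
      _ = (Real.sqrt 2 * ℓ ^ 2 / 4) / 2 := by ring

end Crest.Agent.Cyl1
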