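import Crest.Agent.Lib_helper1.Wrap27

/-!
From sheared square cylinders in `ℝ × ℝ²` (statement S0326) to genuine cylinders in `ℝ³` with
relatively open bases (statement S0329).
-/

set_option autoImplicit false
open MeasureTheory Set

namespace Crest.Agent.Cyl1

open Crest.Agent.Cyl

/-- enlarge the parallelogram bases to bounded relatively open sets. -/
lemma PgCover.toOpen {K : Set E3} {A : ℝ} (h : PgCover K A) (δ : ℝ) (hδ0 : 0 < δ) :
    ∃ (k : ℕ) (u : Fin k → E3) (B : Fin k → Set E3),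
      (∀ i, ‖u i‖ = 1) ∧
      (∀ i, Bornology.IsBounded (B i) ∧ ∃ O : Set E3, IsOpen O ∧
        B i = O ∩ {x | inner ℝ x (u i) = 0}) ∧
      K ⊆ ⋃ i, {x : E3 | ∃ y ∈ B i, ∃ τ : ℝ, x = y + τ • u i} ∧
      ∑ i, (μHE[2] (B i)).toReal ≤ A + δ := by
  obtain ⟨k, u, c, a, b, hu, ho, hc, hA⟩ := h.toFin
  set η : ℝ := δ / ((k : ℝ) + 1) with hη
  have hη0 : 0 < η := by rw [hη]; positivity
  have hex : ∀ i, ∃ B : Set E3, Bornology.IsBounded B ∧
      (∃ O : Set E3, IsOpen O ∧ B = O ∩ {x | inner ℝ x (u i) = 0}) ∧ pgram (c i) (a i) (b i) ⊆ B ∧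
      μHE[2] B ≤ μHE[2] (pgram (c i) (a i) (b i)) + ENNReal.ofReal η := by
    intro i
    refine exists_relOpen_superset (u i) (hu i) _ ?_ (isBounded_pgram _ _ _) η hη0
    rintro x ⟨s, _, t, _, rfl⟩
    obtain ⟨h1, h2, h3⟩ := ho i
    simp [inner_add_left, inner_smul_left, h1, h2, h3]
  choose B hBb hBo hBsub hBarea using hex
  have hBreal : ∀ i, (μHE[2] (B i)).toReal ≤ Real.sqrt (gram (a i) (b i)) + η := by
    intro i
    apply ENNReal.toReal_le_of_le_ofReal (by positivity)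
    rw [ENNReal.ofReal_add (Real.sqrt_nonneg _) hη0.le, ← area_pgram (c i)]
    exact hBarea i
  have hsum : ∑ i, (μHE[2] (B i)).toReal ≤ A + δ := by
    calc ∑ i, (μHE[2] (B i)).toReal ≤ ∑ i, (Real.sqrt (gram (a i) (b i)) + η) :=
          Finset.sum_le_sum (fun i _ => hBreal i)
      _ = ∑ i, Real.sqrt (gram (a i) (b i)) + k * η := by
          rw [Finset.sum_add_distrib]; simp
      _ ≤ A + δ := by
          have : (k : ℝ) * η ≤ δ := by
            rw [hη]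
            have hk : (0 : ℝ) ≤ k := Nat.cast_nonneg k
            rw [mul_div_assoc', div_le_iff₀ (by positivity)]
            nlinarith
          linarith
  refine ⟨k, u, B, hu, fun i => ⟨hBb i, hBo i⟩, ?_, hsum⟩
  intro x hx
  obtain ⟨i, s, hs, t, ht, τ, rfl⟩ := mem_iUnion.mp (hc hx)
  exact mem_iUnion.mpr ⟨i, _, hBsub i ⟨s, hs, t, ht, rfl⟩, τ, rfl⟩

/-- the embedding `ξ ↦ (0, ξ₀, h ξ₁)` -/
noncomputable def emb (h : ℝ) (ξ : E2) : E3 := !₂[0, ξ 0, h * ξ 1]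

/-- the axis `(1, g₀, h g₁)` -/
noncomputable def axis (h : ℝ) (g : E2) : E3 := !₂[1, g 0, h * g 1]

lemma norm_axis (h : ℝ) (g : E2) : ‖axis h g‖ = Real.sqrt (1 + g 0 ^ 2 + h ^ 2 * g 1 ^ 2) := by
  rw [← Real.sqrt_sq (norm_nonneg _), norm_sq3]
  simp [axis]
  ring_nf

lemma axis_ne_zero (h : ℝ) (g : E2) : axis h g ≠ 0 := by
  intro h0
  have := congrArg (fun z : E3 => z 0) h0
  simp [axis] at this

lemma abs_det3_emb (h : ℝ) (hh : 0 < h) (a b g : E2) (hab : inner ℝ a b = 0) (hn : ‖b‖ = ‖a‖) :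
    |det3 (emb h a) (emb h b) (axis h g)| = h * ‖a‖ ^ 2 := by
  have h1 : det3 (emb h a) (emb h b) (axis h g) = h * det2 a b := by
    simp [det3, emb, axis, det2]
    ring
  rw [h1, abs_mul, abs_of_pos hh, abs_det2, gram, hab, hn]
  congr 1
  rw [show ‖a‖ ^ 2 * ‖a‖ ^ 2 - 0 ^ 2 = (‖a‖ ^ 2) ^ 2 by ring, Real.sqrt_sq (by positivity)]

/-- the geometric transfer -/
theorem pgCover_of_sheared (h : ℝ) (hh : 0 < h) (E : Set (ℝ × E2)) (I : ℝ)
    (H : ∃ (k : ℕ) (c a b g : Fin k → E2),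
      (∀ i, a i ≠ 0 ∧ ‖b i‖ = ‖a i‖ ∧ inner ℝ (a i) (b i) = 0) ∧
      E ⊆ ⋃ i, {z : ℝ × E2 | ∃ x ∈ Set.Icc (0 : ℝ) 1, ∃ y ∈ Set.Icc (0 : ℝ) 1,
          z.2 = c i + x • a i + y • b i + z.1 • g i} ∧
      ∑ i, ‖a i‖ ^ 2 / Real.sqrt (1 + (g i 0) ^ 2 + h ^ 2 * (g i 1) ^ 2) ≤ I) :
    PgCover {z : E3 | ∃ e ∈ E, z = !₂[e.1, e.2 0, h * e.2 1]} (h * I) := by
  obtain ⟨k, c, a, b, g, hab, hcov, hsum⟩ := H
  have hd : ∀ i, axis h (g i) ≠ 0 := fun i => axis_ne_zero h (g i)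
  have hn : ∀ i, ‖axis h (g i)‖ ≠ 0 := fun i => norm_ne_zero_iff.mpr (hd i)
  refine ⟨Fin k, inferInstance, fun i => (‖axis h (g i)‖)⁻¹ • axis h (g i),
    fun i => projD (axis h (g i)) (emb h (c i)), fun i => projD (axis h (g i)) (emb h (a i)),
    fun i => projD (axis h (g i)) (emb h (b i)), fun i => norm_inv_smul _ (hd i), ?_, ?_, ?_⟩
  · intro i
    simp only [inner_smul_right, inner_projD _ _ (hd i), mul_zero, and_self]
  · rintro z ⟨e, he, rfl⟩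
    obtain ⟨i, x, hx, y, hy, hxy⟩ := mem_iUnion.mp (hcov he)
    refine mem_iUnion.mpr ⟨i, x, hx, y, hy, ?_⟩
    set d := axis h (g i) with hdd
    have hz : (!₂[e.1, e.2 0, h * e.2 1] : E3)
        = emb h (c i) + x • emb h (a i) + y • emb h (b i) + e.1 • d := by
      rw [hxy]
      ext j
      fin_cases j <;> simp [emb, axis, hdd] <;> ring
    set z₀ : E3 := emb h (c i) + x • emb h (a i) + y • emb h (b i) with hz₀
    refine ⟨(inner ℝ z₀ d / ‖d‖ ^ 2 + e.1) * ‖d‖, ?_⟩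
    rw [hz, ← projD_smul, ← projD_smul, ← projD_add, ← projD_add, ← hz₀, smul_smul,
      mul_assoc, mul_inv_cancel₀ (hn i), mul_one, projD, add_smul]
    abel
  · have : ∀ i, Real.sqrt (gram (projD (axis h (g i)) (emb h (a i)))
        (projD (axis h (g i)) (emb h (b i))))
        = h * (‖a i‖ ^ 2 / Real.sqrt (1 + (g i 0) ^ 2 + h ^ 2 * (g i 1) ^ 2)) := by
      intro i
      rw [sqrt_gram_projD _ _ _ (hd i), abs_det3_emb h hh _ _ _ (hab i).2.2 (hab i).2.1, norm_axis,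
        mul_div_assoc]
    simp_rw [this]
    rw [← Finset.mul_sum]
    exact mul_le_mul_of_nonneg_left hsum hh.le

end Crest.Agent.Cyl1
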