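import Crest.Agent.Lib_helper1.Cover

/-!
Parallelogram covers: staircase approximation of triangles, transfer under similarities.
-/

set_option autoImplicit false
open MeasureTheory Set

namespace Crest.Agent.Cyl1

open Crest.Agent.Cyl

/-- `K` is covered by finitely many cylinders with unit axes and parallelogram perpendicular bases
of total area at most `A`. -/
def PgCover (K : Set E3) (A : ℝ) : Prop :=
  ∃ (ι : Type) (_ : Fintype ι) (u c a b : ι → E3), (∀ i, ‖u i‖ = 1) ∧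
    (∀ i, inner ℝ (c i) (u i) = 0 ∧ inner ℝ (a i) (u i) = 0 ∧ inner ℝ (b i) (u i) = 0) ∧
    K ⊆ ⋃ i, {x : E3 | ∃ s ∈ Icc (0 : ℝ) 1, ∃ t ∈ Icc (0 : ℝ) 1, ∃ τ : ℝ,
      x = c i + s • a i + t • b i + τ • u i} ∧
    ∑ i, Real.sqrt (gram (a i) (b i)) ≤ A

lemma gram_smul_smul {E : Type*} [NormedAddCommGroup E] [InnerProductSpace ℝ E]
    (α β : ℝ) (x y : E) : gram (α • x) (β • y) = (α * β) ^ 2 * gram x y := by
  simp only [gram, norm_smul, inner_smul_left, inner_smul_right, Real.norm_eq_abs, mul_pow, sq_abs]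
  simp
  ring

lemma sqrt_gram_smul_smul {E : Type*} [NormedAddCommGroup E] [InnerProductSpace ℝ E]
    (α β : ℝ) (hα : 0 ≤ α) (hβ : 0 ≤ β) (x y : E) :
    Real.sqrt (gram (α • x) (β • y)) = α * β * Real.sqrt (gram x y) := by
  rw [gram_smul_smul, Real.sqrt_mul (sq_nonneg _), Real.sqrt_sq (mul_nonneg hα hβ)]

lemma sum_range_cast (n : ℕ) : ∑ j ∈ Finset.range n, (j : ℝ) = n * (n - 1) / 2 := by
  induction n with
  | zero => simp
  | succ n ih => rw [Finset.sum_range_succ, ih]; push_cast; ring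

lemma sum_stair (n : ℕ) (hn : 1 ≤ n) :
    ∑ j : Fin n, (1 - (j : ℝ) / n) * (1 / n) = (1 + 1 / (n : ℝ)) / 2 := by
  have hn0 : (n : ℝ) ≠ 0 := by positivity
  rw [Fin.sum_univ_eq_sum_range (fun j => (1 - (j : ℝ) / n) * (1 / n)) n]
  have : ∀ j ∈ Finset.range n, (1 - (j : ℝ) / n) * (1 / n) = 1 / n - (j : ℝ) * (1 / (n : ℝ) ^ 2) := by
    intro j _
    field_simp
  rw [Finset.sum_congr rfl this, Finset.sum_sub_distrib, ← Finset.sum_mul, sum_range_cast]
  simp only [Finset.sum_const, Finset.card_range, nsmul_eq_mul]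
  field_simp
  ring

/-- staircase: a triangle cover gives a parallelogram cover with almost the same area. -/
lemma TriCover.toPg {K : Set E3} {m : ℕ} {A : ℝ} (h : TriCover K m A) (n : ℕ) (hn : 1 ≤ n) :
    PgCover K (A * (1 + 1 / (n : ℝ))) := by
  obtain ⟨u, p, q, r, hu, ho, hc, hA⟩ := h
  have hn0 : (0 : ℝ) < n := by exact_mod_cast hn
  refine ⟨Fin m × Fin n, inferInstance, fun i => u i.1,
    fun i => p i.1 + ((i.2 : ℝ) / n) • (r i.1 - p i.1),
    fun i => (1 - (i.2 : ℝ) / n) • (q i.1 - p i.1),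
    fun i => (1 / (n : ℝ)) • (r i.1 - p i.1), fun i => hu i.1, ?_, ?_, ?_⟩
  · rintro ⟨i, j⟩
    obtain ⟨h1, h2, h3⟩ := ho i
    simp only [inner_add_left, inner_smul_left, inner_sub_left, h1, h2, h3]
    simp
  · intro x hx
    obtain ⟨i, hi⟩ := mem_iUnion.mp (hc hx)
    obtain ⟨y, hy, τ, rfl⟩ := hi
    rw [convexHull_three_eq'] at hy
    obtain ⟨s, t, hs, ht, hst, rfl⟩ := hy
    -- choose the strip
    set j₀ : ℕ := min ⌊t * n⌋₊ (n - 1) with hj₀
    have hj₀lt : j₀ < n := by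
      have : j₀ ≤ n - 1 := min_le_right _ _
      omega
    have hj₀le : (j₀ : ℝ) ≤ t * n := by
      have h1 : (j₀ : ℝ) ≤ (⌊t * n⌋₊ : ℝ) := by exact_mod_cast min_le_left _ _
      exact h1.trans (Nat.floor_le (by positivity))
    have hj₀ge : t * n ≤ (j₀ : ℝ) + 1 := by
      rcases le_total ⌊t * n⌋₊ (n - 1) with hle | hle
      · rw [hj₀, min_eq_left hle]
        exact (Nat.lt_floor_add_one _).le
      · rw [hj₀, min_eq_right hle]
        have h1 : ((n - 1 : ℕ) : ℝ) + 1 = n := by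
          rw [Nat.cast_sub hn]; simp
        rw [h1]
        have : t ≤ 1 := by linarith
        nlinarith
    have hjn : (j₀ : ℝ) / n ≤ t := by
      rw [div_le_iff₀ hn0]; exact hj₀le
    have hjn1 : (j₀ : ℝ) + 1 ≤ n := by exact_mod_cast hj₀lt
    have hpos : 0 < 1 - (j₀ : ℝ) / n := by
      have : (j₀ : ℝ) / n < 1 := by
        rw [div_lt_one hn0]; linarith
      linarith
    refine mem_iUnion.mpr ⟨(i, ⟨j₀, hj₀lt⟩), s / (1 - (j₀ : ℝ) / n), ⟨by positivity, ?_⟩,
      t * n - j₀, ⟨by linarith, by linarith⟩, τ, ?_⟩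
    · rw [div_le_one hpos]; linarith
    · simp only [smul_smul]
      have e1 : s / (1 - (j₀ : ℝ) / n) * (1 - (j₀ : ℝ) / n) = s := div_mul_cancel₀ _ hpos.ne'
      rw [e1]
      have e2 : t • (r i - p i) = ((j₀ : ℝ) / n) • (r i - p i) +
          ((t * n - j₀) * (1 / (n : ℝ))) • (r i - p i) := by
        rw [← add_smul]
        congr 1
        field_simp
        ring
      rw [e2]
      abel
  · rw [Fintype.sum_prod_type]
    have h1 : ∀ i : Fin m, ∑ j : Fin n, Real.sqrt (gram ((1 - (j : ℝ) / n) • (q i - p i))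
        ((1 / (n : ℝ)) • (r i - p i)))
        = (μHE[2] (convexHull ℝ ({p i, q i, r i} : Set E3))).toReal * (1 + 1 / (n : ℝ)) := by
      intro i
      have h2 : ∀ j : Fin n, Real.sqrt (gram ((1 - (j : ℝ) / n) • (q i - p i))
          ((1 / (n : ℝ)) • (r i - p i)))
          = (1 - (j : ℝ) / n) * (1 / n) * Real.sqrt (gram (q i - p i) (r i - p i)) := by
        intro j
        apply sqrt_gram_smul_smul
        · have : (j : ℝ) / n ≤ 1 := by
            rw [div_le_one hn0]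
            exact_mod_cast j.2.le
          linarith
        · positivity
      simp_rw [h2]
      rw [← Finset.sum_mul, sum_stair n hn, area_tri,
        ENNReal.toReal_ofReal (by positivity)]
      ring
    simp only
    simp_rw [h1]
    rw [← Finset.sum_mul, hA]

/-- transfer of a parallelogram cover under a similarity `x ↦ m₀ + lam • Φ x`. -/
lemma PgCover.similarity {K : Set E3} {A : ℝ} (h : PgCover K A) (Φ : E3 →ₗᵢ[ℝ] E3) (lam : ℝ)
    (hlam : 0 ≤ lam) (m₀ : E3) :
    PgCover ((fun x => m₀ + lam • Φ x) '' K) (lam ^ 2 * A) := by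
  obtain ⟨ι, hι, u, c, a, b, hu, ho, hc, hA⟩ := h
  refine ⟨ι, hι, fun i => Φ (u i), fun i => proj (Φ (u i)) m₀ + lam • Φ (c i),
    fun i => lam • Φ (a i), fun i => lam • Φ (b i), ?_, ?_, ?_, ?_⟩
  · intro i; rw [Φ.norm_map]; exact hu i
  · intro i
    obtain ⟨h1, h2, h3⟩ := ho i
    have hu' : ‖Φ (u i)‖ = 1 := by rw [Φ.norm_map]; exact hu i
    refine ⟨?_, ?_, ?_⟩
    · rw [inner_add_left, inner_proj _ _ hu', inner_smul_left, Φ.inner_map_map, h1]; simp
    · rw [inner_smul_left, Φ.inner_map_map, h2]; simp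
    · rw [inner_smul_left, Φ.inner_map_map, h3]; simp
  · rintro _ ⟨x, hx, rfl⟩
    obtain ⟨i, s, hs, t, ht, τ, rfl⟩ := mem_iUnion.mp (hc hx)
    refine mem_iUnion.mpr ⟨i, s, hs, t, ht, lam * τ + inner ℝ m₀ (Φ (u i)), ?_⟩
    simp only [proj, map_add, map_smul, smul_add, smul_smul, add_smul]
    rw [mul_comm lam s, mul_comm lam t]
    abel
  · have h1 : ∀ i, Real.sqrt (gram (lam • Φ (a i)) (lam • Φ (b i)))
        = lam ^ 2 * Real.sqrt (gram (a i) (b i)) := by
      intro i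
      rw [sqrt_gram_smul_smul _ _ hlam hlam, gram_map]
      ring
    simp_rw [h1]
    rw [← Finset.mul_sum]
    exact mul_le_mul_of_nonneg_left hA (sq_nonneg _)

end Crest.Agent.Cyl1
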