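import Crest.Agent.Lib_helper1.Cover

/-!
Wrappers: S0324 and the second half of S0325 from one good triangle cover of the standard
tetrahedron and the lower bound for its projections.
-/

set_option autoImplicit false
open MeasureTheory Set

namespace Crest.Agent.Cyl1

open Crest.Agent.Cyl

/-- the standard regular tetrahedron of the statements -/
noncomputable def K0 : Set E3 :=
  convexHull ℝ {!₂[1, 0, 0], !₂[-1, 0, 0], !₂[0, 1, Real.sqrt 2], !₂[0, -1, Real.sqrt 2]}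

theorem S0325_part2 {m : ℕ} {A₀ : ℝ} (h : TriCover K0 m A₀) (hm : m + 1 ≤ 16000000)
    (hA : A₀ ≤ Real.sqrt 2 * (1 / 2 - 13 / 6000 * (1 / 2000) ^ 2)) :
    ∀ ε : ℝ, 0 < ε → ε ≤ 1 / 2000 →
      ∃ (u p q r : Fin (2 * ⌈2 / ε ^ 2⌉₊) → EuclideanSpace ℝ (Fin 3)),
        (∀ i, ‖u i‖ = 1) ∧
        (∀ i, inner ℝ (p i) (u i) = 0 ∧ inner ℝ (q i) (u i) = 0 ∧ inner ℝ (r i) (u i) = 0) ∧
        convexHull ℝ {!₂[1, 0, 0], !₂[-1, 0, 0], !₂[0, 1, Real.sqrt 2], !₂[0, -1, Real.sqrt 2]} ⊆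
          ⋃ i, {x : EuclideanSpace ℝ (Fin 3) | ∃ b ∈ convexHull ℝ {p i, q i, r i}, ∃ t : ℝ, x = b + t • u i} ∧
        abs ((∑ i, (μHE[2] (convexHull ℝ ({p i, q i, r i} : Set (EuclideanSpace ℝ (Fin 3))))).toReal) / Real.sqrt 2 -
            (1 / 2 - 13 / 6000 * ε ^ 2)) ≤ 2 * ε ^ 4 := by
  intro ε hε hε2
  have hs2 : 0 < Real.sqrt 2 := Real.sqrt_pos.mpr (by norm_num)
  have hsq : ε ^ 2 ≤ (1 / 2000) ^ 2 := pow_le_pow_left₀ hε.le hε2 2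
  have hM : m + 1 ≤ 2 * ⌈2 / ε ^ 2⌉₊ := by
    have h1 : (8000000 : ℝ) ≤ 2 / ε ^ 2 := by
      rw [le_div_iff₀ (by positivity)]
      nlinarith
    have h2 : (8000000 : ℝ) ≤ (⌈2 / ε ^ 2⌉₊ : ℝ) := h1.trans (Nat.le_ceil _)
    have h3 : 8000000 ≤ ⌈2 / ε ^ 2⌉₊ := by exact_mod_cast h2
    omega
  have hA' : A₀ ≤ Real.sqrt 2 * (1 / 2 - 13 / 6000 * ε ^ 2) := by
    refine hA.trans (mul_le_mul_of_nonneg_left ?_ hs2.le)
    linarith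
  obtain ⟨u, p, q, r, hu, ho, hc, hsum⟩ := h.tune _ hM _ hA'
  refine ⟨u, p, q, r, hu, ho, hc, ?_⟩
  rw [hsum, mul_div_cancel_left₀ _ hs2.ne', sub_self, abs_zero]
  positivity

theorem S0324_of {m : ℕ} {A₀ : ℝ} (h : TriCover K0 m A₀) (hA : A₀ < Real.sqrt 2 / 2)
    (hproj : ∀ v : E3, ‖v‖ = 1 →
      Real.sqrt 2 ≤ (μHE[2] ((fun y => y - inner ℝ y v • v) '' K0)).toReal) :
    ∃ (m : ℕ) (u p q r : Fin m → EuclideanSpace ℝ (Fin 3)),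
      (∀ i, ‖u i‖ = 1) ∧
      (∀ i, inner ℝ (p i) (u i) = 0 ∧ inner ℝ (q i) (u i) = 0 ∧ inner ℝ (r i) (u i) = 0) ∧
      convexHull ℝ {!₂[1, 0, 0], !₂[-1, 0, 0], !₂[0, 1, Real.sqrt 2], !₂[0, -1, Real.sqrt 2]} ⊆
        ⋃ i, {x : EuclideanSpace ℝ (Fin 3) | ∃ b ∈ convexHull ℝ {p i, q i, r i}, ∃ t : ℝ, x = b + t • u i} ∧
      ∃ δ : ℝ, 0 < δ ∧ ∀ v : EuclideanSpace ℝ (Fin 3), ‖v‖ = 1 →
        ∑ i, (μH[(2 : ℝ)] (convexHull ℝ {p i, q i, r i})).toReal + δ ≤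
          (μH[(2 : ℝ)] ((fun y => y - inner ℝ y v • v) '' convexHull ℝ {!₂[1, 0, 0], !₂[-1, 0, 0], !₂[0, 1, Real.sqrt 2], !₂[0, -1, Real.sqrt 2]})).toReal / 2 := by
  obtain ⟨κ, hκ, hκs⟩ := muH_toReal
  obtain ⟨u, p, q, r, hu, ho, hc, hsum⟩ := h
  refine ⟨m, u, p, q, r, hu, ho, hc, κ * (Real.sqrt 2 / 2 - A₀), by
    apply mul_pos hκ; linarith, ?_⟩
  intro v hv
  simp_rw [hκs]
  rw [← Finset.mul_sum, hsum]
  have := hproj v hv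
  unfold K0 at this
  nlinarith

end Crest.Agent.Cyl1
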